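import Crest.Agent.R264.Beta.Def

set_option autoImplicit false
set_option linter.unusedSectionVars false
open Set Filter Topology Metric Complex

namespace Crest.Agent.R264

variable {E F G : Type}
  [NormedAddCommGroup E] [NormedSpace ℂ E] [NormedSpace ℝ E] [IsScalarTower ℝ ℂ E] [FiniteDimensional ℂ E]
  [NormedAddCommGroup F] [NormedSpace ℂ F] [NormedSpace ℝ F] [IsScalarTower ℝ ℂ F] [FiniteDimensional ℂ F]
  [NormedAddCommGroup G] [NormedSpace ℂ G] [NormedSpace ℝ G] [IsScalarTower ℝ ℂ G] [FiniteDimensional ℂ G]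

namespace Beta

/-- first component of a field on a product, along the slice `y = y₀` -/
noncomputable def p1 (D : Set E) (y₀ : F) (W : E × F → E × F) : E → E := D.indicator fun z => (W (z, y₀)).1

/-- second component of a field on a product, along the slice `z = z₀` -/
noncomputable def p2 (Y : Set F) (z₀ : E) : (E × F → E × F) →ₗ[ℝ] (F → F) where
  toFun W := Y.indicator fun y => (W (z₀, y)).2
  map_add' V W := by
    funext y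
    by_cases hy : y ∈ Y <;> simp [hy]
  map_smul' c W := by
    funext y
    by_cases hy : y ∈ Y <;> simp [hy]

theorem split {r s : ℕ} {D : Set E} {Y : Set F} (hD : CM r D) (hY : CM s Y) {z₀ : E} (hz₀ : z₀ ∈ D) {y₀ : F}
    (hy₀ : y₀ ∈ Y) {W : E × F → E × F} (hW : Gen (D ×ˢ Y) W) :
    Gen D (p1 D y₀ W) ∧ Gen Y (p2 Y z₀ W) ∧ (∀ z ∈ D, ∀ y ∈ Y, W (z, y) = (p1 D y₀ W z, p2 Y z₀ W y)) ∧
      ∀ t, ∀ z ∈ D, ∀ y ∈ Y, fl (D ×ˢ Y) W t (z, y) = (fl D (p1 D y₀ W) t z, fl Y (p2 Y z₀ W) t y) := by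
  obtain ⟨W₁, W₂, h1, h2, h3, h4⟩ := gen_prod hD hY hW
  have e1 : p1 D y₀ W = W₁ := by
    funext z
    by_cases hz : z ∈ D
    · rw [p1, indicator_of_mem hz, h3 z hz y₀ hy₀]
    · rw [p1, indicator_of_notMem hz, h1.off z hz]
  have e2 : p2 Y z₀ W = W₂ := by
    funext y
    change Y.indicator (fun y => (W (z₀, y)).2) y = _
    by_cases hy : y ∈ Y
    · rw [indicator_of_mem hy, h3 z₀ hz₀ y hy]
    · rw [indicator_of_notMem hy, h2.off y hy]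
  rw [e1, e2]
  exact ⟨h1, h2, h3, h4⟩

theorem an_slice {D : Set E} {Y : Set F} {f : E × F → G} (hf : AnalyticOn ℂ f (D ×ˢ Y)) {y : F} (hy : y ∈ Y) :
    AnalyticOn ℂ (fun z => f (z, y)) D :=
  AnalyticOn.comp (f := f) (g := fun z => (z, y)) hf (analyticOn_id.prod analyticOn_const) fun _ hz => ⟨hz, hy⟩

theorem factor {r s : ℕ} {D : Set E} {Y : Set F} (hD : CM r D) (hY : CM s Y) (hR : Rigid Y)
    {𝒩 : Set (E × F → E × F)} {δ ρ : E × F → E × F} {Ω : Set (E × F)} (h : SD (D ×ˢ Y) 𝒩 δ ρ Ω) :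
    ∃ (𝒩' : Set (E → E)) (δ' ρ' : E → E), (∀ N ∈ 𝒩', Gen D N) ∧ Gen D δ' ∧
      (∀ N ∈ 𝒩', br D δ' N = -N ∨ br D δ' N = -((2 : ℝ) • N)) ∧
      (∀ x ∈ D, δ' x ∈ Submodule.span ℂ ((fun N => N x) '' 𝒩')) ∧ AnalyticOn ℂ ρ' D ∧ MapsTo ρ' D D ∧
      (∀ x ∈ D, ρ' (ρ' x) = ρ' x) ∧ (∀ W ∈ insert δ' 𝒩', ∀ x ∈ D, der D W ρ' x = 0) ∧
      (∀ (u : E → E), AnalyticOn ℂ u D → (∀ W ∈ insert δ' 𝒩', ∀ x ∈ D, der D W u x = 0) → ∀ x ∈ D, u (ρ' x) = u x) ∧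
      ∃ f g : E × F → E × F, Bih (ρ '' (D ×ˢ Y)) ((ρ' '' D) ×ˢ Y) f g := by
  obtain ⟨z₀, hz₀⟩ := hD.conn.nonempty
  obtain ⟨y₀, hy₀⟩ := hY.conn.nonempty
  have hX := hD.prod hY
  have hgen : ∀ W ∈ insert δ 𝒩, Gen (D ×ˢ Y) W := by
    rintro W (rfl | hW)
    · exact h.genδ
    · exact h.genN W hW
  have hS := gen_span hX hgen
  -- rigidity kills the second components
  have h2 : ∀ W ∈ insert δ 𝒩, p2 Y z₀ W = 0 := by
    have := hR ((Submodule.span ℝ (insert δ 𝒩)).map (p2 Y z₀)) ?_ ?_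
    · intro W hW
      have h1 : p2 Y z₀ W ∈ (Submodule.span ℝ (insert δ 𝒩)).map (p2 Y z₀) :=
        Submodule.mem_map_of_mem (Submodule.subset_span hW)
      rw [this] at h1
      exact h1
    · rintro _ ⟨W, hW, rfl⟩
      exact (split hD hY hz₀ hy₀ (hS W hW)).2.1
    · rintro y hy _ ⟨W, hW, rfl⟩
      obtain ⟨W', hW', he⟩ := h.cx (z₀, y) ⟨hz₀, hy⟩ W hW
      refine ⟨_, Submodule.mem_map_of_mem hW', ?_⟩
      change Y.indicator (fun y => (W' (z₀, y)).2) y = I • Y.indicator (fun y => (W (z₀, y)).2) y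
      rw [indicator_of_mem hy, indicator_of_mem hy, he]
      rfl
  have hg1 : ∀ W ∈ insert δ 𝒩, Gen D (p1 D y₀ W) := fun W hW => (split hD hY hz₀ hy₀ (hgen W hW)).1
  have hval : ∀ W ∈ insert δ 𝒩, ∀ z ∈ D, ∀ y ∈ Y, W (z, y) = (p1 D y₀ W z, 0) := by
    intro W hW z hz y hy
    rw [(split hD hY hz₀ hy₀ (hgen W hW)).2.2.1 z hz y hy, h2 W hW]
    rfl
  have hfl : ∀ W ∈ insert δ 𝒩, ∀ t, ∀ x ∈ D ×ˢ Y, fl (D ×ˢ Y) W t x = (fl D (p1 D y₀ W) t x.1, x.2) := by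
    rintro W hW t ⟨z, y⟩ ⟨hz, hy⟩
    rw [(split hD hY hz₀ hy₀ (hgen W hW)).2.2.2 t z hz y hy, h2 W hW, (gen_zero Y).fl_fix hy rfl]
  have hmaps : ∀ W ∈ insert δ 𝒩, ∀ t, ∀ x ∈ D ×ˢ Y, fl (D ×ˢ Y) W t x ∈ D ×ˢ Y := fun W hW t x hx =>
    (hgen W hW).isFlow.maps t hx
  have hcρ : ContinuousOn ρ (D ×ˢ Y) := h.anρ.continuousOn
  -- invariant functions
  have hinvf : ∀ {H : Type} [NormedAddCommGroup H] [NormedSpace ℂ H] [NormedSpace ℝ H] [IsScalarTower ℝ ℂ H]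
      [FiniteDimensional ℂ H] (u : E × F → H), ContinuousOn u (D ×ˢ Y) →
      (∀ W ∈ insert δ 𝒩, ∀ t, ∀ x ∈ D ×ˢ Y, u (fl (D ×ˢ Y) W t x) = u x) → ∀ x ∈ D ×ˢ Y, u (ρ x) = u x := by
    intro H _ _ _ _ _ u hu hi
    refine eq_of_dense h.sub h.dense (hu.comp hcρ h.mρ) hu fun x hx => ?_
    obtain ⟨N, hN, N', hN', t, he⟩ := h.orb x hx
    have m0 := h.mρ (h.sub hx)
    have m1 := hmaps δ (mem_insert _ _) t _ m0
    have m2 := hmaps N' (mem_insert_of_mem _ hN') 1 _ m1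
    conv_rhs => rw [he]
    rw [hi N (mem_insert_of_mem _ hN) 1 _ m2, hi N' (mem_insert_of_mem _ hN') 1 _ m1, hi δ (mem_insert _ _) t _ m0]
  have hρ2 : ∀ x ∈ D ×ˢ Y, (ρ x).2 = x.2 :=
    hinvf Prod.snd continuousOn_snd fun W hW t x hx => by rw [hfl W hW t x hx]
  have hρinv : ∀ W ∈ insert δ 𝒩, ∀ t, ∀ x ∈ D ×ˢ Y, ρ (fl (D ×ˢ Y) W t x) = ρ x := fun W hW =>
    ((hgen W hW).inv_iff h.anρ).2 (h.inv W hW)
  have hmem : ∀ W' ∈ insert (p1 D y₀ δ) (p1 D y₀ '' 𝒩), ∃ W ∈ insert δ 𝒩, p1 D y₀ W = W' := by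
    rw [← image_insert_eq]
    exact fun W' hW' => hW'
  have hu1 : ∀ u : E → E, AnalyticOn ℂ u D →
      (∀ W ∈ insert δ 𝒩, ∀ t, ∀ z ∈ D, u (fl D (p1 D y₀ W) t z) = u z) → ∀ x ∈ D ×ˢ Y, u (ρ x).1 = u x.1 := by
    intro u hu hi
    refine hinvf (fun x => u x.1) (hu.continuousOn.comp continuousOn_fst fun x hx => hx.1) fun W hW t x hx => ?_
    rw [hfl W hW t x hx]
    exact hi W hW t _ hx.1
  have hany : ∀ y ∈ Y, AnalyticOn ℂ (fun z => (ρ (z, y)).1) D := fun y hy =>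
    an_slice (f := fun x => (ρ x).1) ((ContinuousLinearMap.fst ℂ E F).comp_analyticOn h.anρ) hy
  have hyinv : ∀ y ∈ Y, ∀ W ∈ insert δ 𝒩, ∀ t, ∀ z ∈ D, (ρ (fl D (p1 D y₀ W) t z, y)).1 = (ρ (z, y)).1 := by
    intro y hy W hW t z hz
    have := hρinv W hW t (z, y) ⟨hz, hy⟩
    rw [hfl W hW t (z, y) ⟨hz, hy⟩] at this
    rw [this]
  have hρeq : ∀ z ∈ D, ∀ y ∈ Y, ρ (z, y) = ((ρ (z, y)).1, y) := fun z hz y hy =>
    Prod.ext rfl (hρ2 (z, y) ⟨hz, hy⟩)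
  have hfst : ∀ W : E × F → E × F, VF (D ×ˢ Y) W → ∀ x ∈ D ×ˢ Y, der (D ×ˢ Y) W Prod.fst x = (W x).1 :=
    fun W hW x hx => Dv_of_has (L := ContinuousLinearMap.fst ℂ E F) hasFDerivWithinAt_fst (hW.tan x hx)
  have hidem : ∀ z ∈ D, (ρ ((ρ (z, y₀)).1, y₀)).1 = (ρ (z, y₀)).1 := fun z hz => by
    rw [← hρeq z hz y₀ hy₀, h.idem _ ⟨hz, hy₀⟩]
  refine ⟨p1 D y₀ '' 𝒩, p1 D y₀ δ, fun z => (ρ (z, y₀)).1, ?_, hg1 δ (mem_insert _ _), ?_, ?_, hany y₀ hy₀,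
    fun z hz => (h.mρ (show (z, y₀) ∈ D ×ˢ Y from ⟨hz, hy₀⟩)).1, hidem, ?_, ?_, ?_⟩
  · rintro _ ⟨N, hN, rfl⟩
    exact hg1 N (mem_insert_of_mem _ hN)
  · rintro _ ⟨N, hN, rfl⟩
    have hN' := mem_insert_of_mem δ hN
    have hrel : ∀ W ∈ insert δ 𝒩, ∀ x ∈ D ×ˢ Y, p1 D y₀ W x.1 = der (D ×ˢ Y) W Prod.fst x := by
      rintro W hW ⟨z, y⟩ hx
      rw [hfst W (hgen W hW).vf _ hx, hval W hW z hx.1 y hx.2]
    have hb : ∀ z ∈ D, br D (p1 D y₀ δ) (p1 D y₀ N) z = (br (D ×ˢ Y) δ N (z, y₀)).1 := by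
      intro z hz
      have := br_related hX.mfd hD.mfd (f := Prod.fst) analyticOn_fst (fun x hx => hx.1) h.genδ.vf (h.genN N hN).vf
        (hg1 δ (mem_insert _ _)).vf (hg1 N hN').vf (hrel δ (mem_insert _ _)) (hrel N hN') (z, y₀) ⟨hz, hy₀⟩
      rw [hfst _ (VF.lie hX.mfd h.genδ.vf (h.genN N hN).vf) _ ⟨hz, hy₀⟩] at this
      exact this
    refine (h.wt N hN).imp (fun he => ?_) (fun he => ?_)
    · funext z
      by_cases hz : z ∈ D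
      · rw [hb z hz, he, Pi.neg_apply, Pi.neg_apply, hval N hN' z hz y₀ hy₀]
        rfl
      · rw [br_off _ _ hz, Pi.neg_apply, (hg1 N hN').off z hz, neg_zero]
    · funext z
      by_cases hz : z ∈ D
      · rw [hb z hz, he, Pi.neg_apply, Pi.neg_apply, Pi.smul_apply, Pi.smul_apply, hval N hN' z hz y₀ hy₀]
        rfl
      · rw [br_off _ _ hz, Pi.neg_apply, Pi.smul_apply, (hg1 N hN').off z hz, smul_zero, neg_zero]
  · intro z hz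
    have h1 := Submodule.mem_map_of_mem (f := LinearMap.fst ℂ E F) (h.dep (z, y₀) ⟨hz, hy₀⟩)
    rw [Submodule.map_span, image_image] at h1
    rw [image_image]
    simp only [p1, indicator_of_mem hz]
    exact h1
  · intro W' hW'
    obtain ⟨W, hW, rfl⟩ := hmem W' hW'
    exact ((hg1 W hW).inv_iff (hany y₀ hy₀)).1 (hyinv y₀ hy₀ W hW)
  · intro u hu hi z hz
    refine hu1 u hu (fun W hW => ((hg1 W hW).inv_iff hu).2 (hi _ ?_)) (z, y₀) ⟨hz, hy₀⟩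
    rw [← image_insert_eq]
    exact mem_image_of_mem _ hW
  · have hsub : ρ '' (D ×ˢ Y) ⊆ D ×ˢ Y := by
      rintro _ ⟨x, hx, rfl⟩
      exact h.mρ hx
    have hsub' : ((fun z => (ρ (z, y₀)).1) '' D) ×ˢ Y ⊆ D ×ˢ Y := by
      rintro ⟨_, y⟩ ⟨⟨z, hz, rfl⟩, hy⟩
      exact ⟨(h.mρ (show (z, y₀) ∈ D ×ˢ Y from ⟨hz, hy₀⟩)).1, hy⟩
    refine ⟨fun x => ((ρ (x.1, y₀)).1, x.2), ρ, ?_, h.anρ.mono hsub', fun x hx => ?_, fun x hx => ?_, ?_, ?_⟩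
    · refine AnalyticOn.mono ?_ hsub
      exact ((hany y₀ hy₀).comp analyticOn_fst fun x hx => hx.1).prod analyticOn_snd
    · exact ⟨mem_image_of_mem _ (hsub hx).1, (hsub hx).2⟩
    · exact mem_image_of_mem _ (hsub' hx)
    · rintro ⟨z, y⟩ hx
      obtain ⟨hz, hy⟩ := hsub hx
      have hfix : ρ (z, y) = (z, y) := by
        obtain ⟨x, hx', he⟩ := hx
        rw [← he]
        exact h.idem x hx'
      have h1 := hu1 _ (hany y hy) (hyinv y hy) (z, y₀) ⟨hz, hy₀⟩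
      change ρ ((ρ (z, y₀)).1, y) = (z, y)
      rw [hρeq _ (h.mρ (show (z, y₀) ∈ D ×ˢ Y from ⟨hz, hy₀⟩)).1 y hy, h1, hfix]
    · rintro ⟨_, y⟩ ⟨⟨z, hz, rfl⟩, hy⟩
      have hz' := (h.mρ (show (z, y₀) ∈ D ×ˢ Y from ⟨hz, hy₀⟩)).1
      have h1 := hu1 _ (hany y₀ hy₀) (hyinv y₀ hy₀) ((ρ (z, y₀)).1, y) ⟨hz', hy⟩
      refine Prod.ext ?_ (hρ2 _ ⟨hz', hy⟩)
      exact h1.trans (hidem z hz)

end Beta

end Crest.Agent.R264
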