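import Crest.Agent.R264.Beta.Def

set_option autoImplicit false
set_option linter.unusedSectionVars false
open Set Filter Topology Metric Complex

namespace Crest.Agent.R264

variable {E F G : Type}
  [NormedAddCommGroup E] [NormedSpace ℂ E] [NormedSpace ℝ E] [IsScalarTower ℝ ℂ E] [FiniteDimensional ℂ E]
  [NormedAddCommGroup F] [NormedSpace ℂ F] [NormedSpace ℝ F] [IsScalarTower ℝ ℂ F] [FiniteDimensional ℂ F]
  [NormedAddCommGroup G] [NormedSpace ℂ G] [NormedSpace ℝ G] [IsScalarTower ℝ ℂ G] [FiniteDimensional ℂ G]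

namespace Beta

variable {L : Type} [LieRing L] [LieAlgebra ℝ L] [FiniteDimensional ℝ L] {ι : L →ₗ[ℝ] (E → E)}

theorem evx_apply (ι : L →ₗ[ℝ] (E → E)) (x : E) (a : L) : evx ι x a = ι a x := rfl

theorem negK {r : ℕ} {D : Set E} (hD : Sym r D) (h : LieRep D ι) (hf : ∀ W, Gen D W → ∃ a, ι a = W) {x : E}
    (hx : x ∈ D) : NegK (evx ι x) := by
  intro k hk hne
  rw [evx_apply] at hk
  obtain ⟨b, hs, hp, hsk⟩ := h.iso hD.cm hx hk
  refine killing_neg_of_skew hs hp hsk ?_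
  by_contra hcon
  push Not at hcon
  refine hne (h.inj ?_)
  rw [map_zero]
  refine (h.gen k).eq_zero hD.cm hx hk fun v hv => ?_
  obtain ⟨W, hW, rfl⟩ := hD.tr x hx v hv
  obtain ⟨a, rfl⟩ := hf W hW
  have h1 := congrFun (h.lie k a) x
  rw [hcon a, map_zero, br_apply _ _ hx, hk, map_zero, zero_sub] at h1
  exact neg_eq_zero.1 h1.symm

theorem car {r : ℕ} {D : Set E} (hD : Sym r D) (h : LieRep D ι) (hf : ∀ W, Gen D W → ∃ a, ι a = W) {x : E}
    (hx : x ∈ D) : ∃ Z, Car (evx ι x) Z := by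
  obtain ⟨Z', hZ', h0, hd⟩ := hD.circ x hx
  obtain ⟨Z, rfl⟩ := hf Z' hZ'
  refine ⟨Z, h0, fun k hk => ?_, fun a => ?_⟩
  · rw [evx_apply] at hk
    refine h.inj ?_
    rw [map_zero]
    refine (h.gen _).eq_zero hD.cm hx ?_ fun v hv => ?_
    · rw [h.lie, br_apply _ _ hx, h0, hk, map_zero, map_zero, sub_zero]
    · rw [h.lie, (Dv_br hD.cm.mfd hZ'.vf (h.gen k).vf hx h0 hk hv).2, hd v hv,
        hd _ (Dv_br hD.cm.mfd (h.gen k).vf hZ'.vf hx hk h0 hv).1, map_smul, sub_self]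
  · rw [evx_apply, evx_apply, h.lie, br_apply _ _ hx, h0, map_zero, zero_sub, hd _ ((h.gen a).vf.tan x hx)]

theorem retract' {r : ℕ} {D : Set E} (hD : Sym r D) {𝒩 : Set (E → E)} {δ ρ : E → E} (hN : ∀ N ∈ 𝒩, Gen D N)
    (hδ : Gen D δ) (hw : ∀ N ∈ 𝒩, br D δ N = -N ∨ br D δ N = -((2 : ℝ) • N))
    (hdep : ∀ x ∈ D, δ x ∈ Submodule.span ℂ ((fun N => N x) '' 𝒩)) (ha : AnalyticOn ℂ ρ D) (hm : MapsTo ρ D D)
    (hi : ∀ x ∈ D, ρ (ρ x) = ρ x) (hinv : ∀ W ∈ insert δ 𝒩, ∀ x ∈ D, der D W ρ x = 0)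
    (hu : ∀ (u : E → E), AnalyticOn ℂ u D → (∀ W ∈ insert δ 𝒩, ∀ x ∈ D, der D W u x = 0) → ∀ x ∈ D, u (ρ x) = u x) :
    ∃ k, Sym k (ρ '' D) := by
  obtain ⟨L, _, _, _, ι, h, hf⟩ := exists_lieRep hD.cm
  have hM := hD.cm.mfd
  obtain ⟨k, hk, htan⟩ := retract hM hD.cm.conn.isPreconnected ha hm hi
  have hsub : ρ '' D ⊆ D := by
    rintro _ ⟨y, hy, rfl⟩
    exact hm hy
  have hfix : ∀ x ∈ ρ '' D, ρ x = x := by
    rintro _ ⟨y, hy, rfl⟩
    exact hi y hy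
  have hJ : ∀ x ∈ D, JAlg (evx ι x) := by
    intro x hx
    refine h.jalg hD.cm hx fun a => ?_
    obtain ⟨W, hW, he⟩ := hD.tr x hx _ ((Tan D x).smul_mem I ((h.gen a).vf.tan x hx))
    obtain ⟨a', rfl⟩ := hf W hW
    exact ⟨a', he⟩
  obtain ⟨x₀, hx₀⟩ := hD.cm.conn.nonempty
  obtain ⟨Z₀, hZ₀⟩ := car hD h hf hx₀
  have hK := (ja3 (hJ x₀ hx₀) (negK hD h hf hx₀) hZ₀).1
  obtain ⟨d, rfl⟩ := hf δ hδ
  obtain ⟨𝔲, 𝔭, hle, hb, hNP, ho, hdim, hmin⟩ := jab1 hK d (ι ⁻¹' 𝒩) (fun N hN' => by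
    rcases hw _ hN' with h1 | h1
    · left
      refine h.inj ?_
      rw [h.lie, h1, map_neg]
    · right
      refine h.inj ?_
      rw [h.lie, h1, map_neg, map_smul])
  -- `v a = der (ι a) ρ`
  have hvan : ∀ a, AnalyticOn ℂ (der D (ι a) ρ) D := fun a => der_an hM (h.gen a).vf ha
  have hder : ∀ N, ι N ∈ insert (ι d) 𝒩 → ∀ a, ∀ x ∈ D,
      der D (ι ⁅N, a⁆) ρ x = der D (ι N) (der D (ι a) ρ) x := by
    intro N hN' a x hx
    rw [h.lie, der_br hM (h.gen N).vf (h.gen a).vf ha hx]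
    have : der D (ι a) (der D (ι N) ρ) x = 0 := by
      rw [der, Dv_congr hx (g := fun _ => (0 : E)) (eventually_nhdsWithin_of_forall fun y hy => hinv _ hN' y hy)]
      exact Dv_const 0
    rw [this, sub_zero]
  have hkill : ∀ u : E → E, (∀ N ∈ 𝒩, ∀ x ∈ D, der D N u x = 0) → ∀ x ∈ D, der D (ι d) u x = 0 := by
    intro u hu' x hx
    have : Submodule.span ℂ ((fun N => N x) '' 𝒩) ≤ LinearMap.ker (Dv D u x : E →ₗ[ℂ] E) := by
      rw [Submodule.span_le]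
      rintro _ ⟨N, hN', rfl⟩
      exact hu' N hN' x hx
    exact this (hdep x hx)
  let 𝔳 : Submodule ℝ L :=
    { carrier := {a | ∀ x ∈ D, der D (ι a) ρ x = 0}
      add_mem' := fun {a b} ha' hb' x hx => by
        have h1 := ha' x hx
        have h2 := hb' x hx
        simp only [der] at h1 h2 ⊢
        rw [map_add, Pi.add_apply, map_add, h1, h2, add_zero]
      zero_mem' := fun x _ => by simp [der]
      smul_mem' := fun c a ha' x hx => by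
        have h1 := ha' x hx
        simp only [der] at h1 ⊢
        rw [map_smul, Pi.smul_apply, ContinuousLinearMap.map_smul_of_tower, h1, smul_zero] }
  have hstep : ∀ a, (∀ N ∈ ι ⁻¹' 𝒩, ⁅N, a⁆ ∈ 𝔳) → ∀ W ∈ insert (ι d) 𝒩, ∀ x ∈ D,
      der D W (der D (ι a) ρ) x = 0 := by
    intro a ha'
    have h1 : ∀ N ∈ 𝒩, ∀ x ∈ D, der D N (der D (ι a) ρ) x = 0 := by
      intro N hN' x hx
      obtain ⟨N, rfl⟩ := hf N (hN N hN')
      rw [← hder N (mem_insert_of_mem _ hN') a x hx]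
      exact ha' N hN' x hx
    rintro W (rfl | hW)
    · exact hkill _ h1
    · exact h1 W hW
  have hu𝔳 : 𝔲 ≤ 𝔳 := hmin 𝔳 fun a ha' x hx => by
    rw [hder d (mem_insert _ _) a x hx]
    exact hstep a ha' _ (mem_insert _ _) x hx
  have hvρ : ∀ P ∈ 𝔭, ∀ x ∈ D, der D (ι P) ρ (ρ x) = der D (ι P) ρ x := fun P hP =>
    hu _ (hvan P) (hstep P fun N hN' => hu𝔳 (hNP N hN' P hP))
  -- the projected fields
  have hgen : ∀ P ∈ 𝔭, Gen (ρ '' D) ((ρ '' D).indicator (der D (ι P) ρ)) := by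
    intro P hP
    have hF := (h.gen P).isFlow
    refine (gen_of_curves (φ := fun t x => ρ (fl D (ι P) t x)) ?_ (fun x hx => indicator_of_notMem hx _)
      (fun t => ⟨?_, fun x hx => ?_⟩) (fun x hx => ?_) (fun x hx t => ?_)).1
    · exact ((hvan P).mono hsub).congr fun x hx => indicator_of_mem hx _
    · exact (ha.comp (hF.an t) (hF.maps t)).mono hsub
    · exact mem_image_of_mem ρ (hF.maps t (hsub hx))
    · simp only [hF.zero x (hsub hx), hfix x hx]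
    · have hx' := hsub hx
      rw [indicator_of_mem (mem_image_of_mem ρ (hF.maps t hx')), hvρ P hP _ (hF.maps t hx')]
      exact hasDerivAt_comp_curve (hF.hasDerivAt hx' t) (Eventually.of_forall fun s => hF.maps s hx')
        (ha.differentiableOn _ (hF.maps t hx'))
  have hrel : ∀ P ∈ 𝔭, ∀ y ∈ D, (ρ '' D).indicator (der D (ι P) ρ) (ρ y) = der D (ι P) ρ y := fun P hP y hy => by
    rw [indicator_of_mem (mem_image_of_mem ρ hy), hvρ P hP y hy]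
  have key : ∀ x ∈ ρ '' D, ∃ Z' ∈ 𝔭, ι Z' x = 0 ∧ ∀ v ∈ Tan (ρ '' D) x, ∃ a' ∈ 𝔭, der D (ι a') ρ x = v ∧
      der D (ι ⁅Z', a'⁆) ρ x = -(I • v) := by
    intro x hx
    have hx' := hsub hx
    obtain ⟨Z, hZ⟩ := car hD h hf hx'
    obtain ⟨Z', hZ', h0, hall⟩ := jab2 (hJ x hx') (negK hD h hf hx') hZ hle hb ho hdim (Dv D ρ x : E →ₗ[ℂ] E)
      (fun N hN' => hu𝔳 hN' x hx')
    refine ⟨Z', hZ', h0, fun v hv => ?_⟩
    rw [htan x hx] at hv
    obtain ⟨w, hw', rfl⟩ := hv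
    obtain ⟨W, hW, rfl⟩ := hD.tr x hx' w hw'
    obtain ⟨a, rfl⟩ := hf W hW
    obtain ⟨a', ha', h1, h2⟩ := hall a
    refine ⟨a', ha', h1, ?_⟩
    rw [h1] at h2
    exact h2
  refine ⟨k, hD.cm.retract ha hm hi hk, fun x hx v hv => ?_, fun x hx => ?_⟩
  · obtain ⟨Z', -, -, hall⟩ := key x hx
    obtain ⟨a', ha', h1, -⟩ := hall v hv
    exact ⟨_, hgen a' ha', by rw [indicator_of_mem hx, h1]⟩
  · obtain ⟨Z', hZ', h0, hall⟩ := key x hx
    have hz : (ρ '' D).indicator (der D (ι Z') ρ) x = 0 := by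
      rw [indicator_of_mem hx, der, h0, map_zero]
    refine ⟨_, hgen Z' hZ', hz, fun v hv => ?_⟩
    obtain ⟨a', ha', h1, h2⟩ := hall v hv
    have h3 := br_related hM hk ha (mapsTo_image ρ D) (h.gen Z').vf (h.gen a').vf (hgen Z' hZ').vf (hgen a' ha').vf
      (hrel Z' hZ') (hrel a' ha') x (hsub hx)
    rw [hfix x hx, ← h.lie, h2, br_apply _ _ hx, hz, map_zero, zero_sub, indicator_of_mem hx, h1] at h3
    exact neg_injective h3

end Beta

end Crest.Agent.R264
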