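import Crest.Agent.R264.Lie.Kos
import Crest.Agent.R264.JA

set_option autoImplicit false
set_option linter.unusedSectionVars false
open Set Filter Topology Metric Complex

namespace Crest.Agent.R264

variable {E F G : Type}
  [NormedAddCommGroup E] [NormedSpace ℂ E] [NormedSpace ℝ E] [IsScalarTower ℝ ℂ E] [FiniteDimensional ℂ E]
  [NormedAddCommGroup F] [NormedSpace ℂ F] [NormedSpace ℝ F] [IsScalarTower ℝ ℂ F] [FiniteDimensional ℂ F]
  [NormedAddCommGroup G] [NormedSpace ℂ G] [NormedSpace ℝ G] [IsScalarTower ℝ ℂ G] [FiniteDimensional ℂ G]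

/-- infinitesimal form of a Heisenberg action -/
structure SD (X : Set E) (𝒩 : Set (E → E)) (δ : E → E) (ρ : E → E) (Ω : Set E) : Prop where
  genN : ∀ N ∈ 𝒩, Gen X N
  genδ : Gen X δ
  wt : ∀ N ∈ 𝒩, br X δ N = -N ∨ br X δ N = -((2 : ℝ) • N)
  cx : CxVal X (Submodule.span ℝ (insert δ 𝒩) : Submodule ℝ (E → E))
  dep : ∀ x ∈ X, δ x ∈ Submodule.span ℂ ((fun N => N x) '' 𝒩)
  anρ : AnalyticOn ℂ ρ X
  mρ : MapsTo ρ X X
  idem : ∀ x ∈ X, ρ (ρ x) = ρ x
  inv : ∀ W ∈ insert δ 𝒩, ∀ x ∈ X, der X W ρ x = 0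
  sub : Ω ⊆ X
  dense : X ⊆ closure Ω
  orb : ∀ x ∈ Ω, ∃ N ∈ 𝒩, ∃ N' ∈ 𝒩, ∃ s : ℝ, x = fl X N 1 (fl X N' 1 (fl X δ s (ρ x)))

namespace Beta

/-- two maps continuous on `X` which agree on a dense subset agree -/
theorem eq_of_dense {X Ω : Set E} (hs : Ω ⊆ X) (hd : X ⊆ closure Ω) {f g : E → F} (hf : ContinuousOn f X)
    (hg : ContinuousOn g X) (h : ∀ x ∈ Ω, f x = g x) : ∀ x ∈ X, f x = g x :=
  fun _ hx => Set.EqOn.of_subset_closure (f := f) (g := g) (fun y hy => h y hy) hf hg hs hd hx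

/-- the derivative of the flow at a zero of the field where the linear part is scalar -/
theorem Dv_fl_scalar {n : ℕ} {X : Set E} (hX : Mfd n X) {W : E → E} (h : Gen X W) {x : E} (hx : x ∈ X)
    (h0 : W x = 0) {c : ℂ} (hc : ∀ v ∈ Tan X x, Dv X W x v = c • v) {v : E} (hv : v ∈ Tan X x) (t : ℝ) :
    Dv X (fl X W t) x v = Complex.exp (c * t) • v := by
  have hF := h.isFlow
  have hfix : ∀ s, fl X W s x = x := h.fl_fix hx h0
  have htan : ∀ s, Dv X (fl X W s) x v ∈ Tan X x := by
    intro s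
    have := Dv_mem_tan (X := X) (Y := X) (f := fl X W s) ((hF.an s).differentiableOn x hx)
      (eventually_nhdsWithin_of_forall fun y hy => hF.maps s hy) hv
    rwa [hfix] at this
  have hd : ∀ s, HasDerivAt (fun s => Dv X (fl X W s) x v) (c • Dv X (fl X W s) x v) s := by
    intro s
    have := h.Dv_fl hX hx hv s
    rwa [hfix, hc _ (htan s)] at this
  have he : ∀ s : ℝ, HasDerivAt (fun s : ℝ => Complex.exp (-(c * s))) (-c * Complex.exp (-(c * s))) s := by
    intro s
    have h1 : HasDerivAt (fun s : ℝ => -(c * (s : ℂ))) (-c) s := by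
      have := ((Complex.ofRealCLM.hasDerivAt (x := s)).const_mul c).fun_neg
      simpa using this
    simpa [mul_comm] using h1.cexp
  have hz : ∀ s : ℝ, HasDerivAt (fun s : ℝ => Complex.exp (-(c * s)) • Dv X (fl X W s) x v) 0 s := by
    intro s
    have := (he s).fun_smul (hd s)
    rw [smul_smul, ← add_smul] at this
    have h2 : Complex.exp (-(c * s)) * c + -c * Complex.exp (-(c * s)) = 0 := by ring
    rwa [h2, zero_smul] at this
  have hconst := is_const_of_deriv_eq_zero (fun s => (hz s).differentiableAt) (fun s => (hz s).deriv) t 0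
  have h00 : Dv X (fl X W 0) x v = v := by
    rw [Dv_congr hx (g := fun y => y) (eventually_nhdsWithin_of_forall fun y hy => hF.zero y hy)]
    exact Dv_id hv
  simp only [Complex.ofReal_zero, mul_zero, neg_zero, Complex.exp_zero, one_smul, h00] at hconst
  conv_rhs => rw [← hconst, smul_smul, ← Complex.exp_add]
  simp

/-- conjugation of flows -/
theorem Dv_conj {X : Set E} {Y : Set F} {W : E → E} {W' : F → F} {φ : ℝ → E → E} {φ' : ℝ → F → F}
    (h : IsFlow X W φ) (h' : IsFlow Y W' φ') {g : E → F} {x : E} (hx : x ∈ X) (hg : DifferentiableWithinAt ℂ g X x)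
    (hm : g x ∈ Y) (he : ∀ t, g (φ t x) = φ' t (g x)) : Dv X g x (W x) = W' (g x) := by
  have h1 := hasDerivAt_comp_curve (X := X) (f := g) (h.der x hx)
    (Eventually.of_forall fun s => h.maps s hx) (by simpa only [h.zero x hx] using hg)
  simp only [h.zero x hx, he] at h1
  exact h1.unique (h'.der _ hm)

/-- brackets from conjugation formulas -/
theorem br_of_conj {n : ℕ} {X : Set E} (hX : Mfd n X) {V W : E → E} (hV : Gen X V) (hW : Gen X W)
    {Ws : ℝ → E → E} (h : ∀ s, ∀ x ∈ X, Dv X (fl X V s) x (W x) = Ws s (fl X V s x)) {y w : E} (hy : y ∈ X)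
    (hw : HasDerivAt (fun s => Ws s y) w 0) : br X V W y = -w := by
  have hF := hV.isFlow
  have h1 := hV.push_fl hX hW.vf hy 0
  rw [push_id (f := fl X V 0) (g := fl X V (-0)) (fun x hx => hF.zero x hx)
    (fun x hx => by rw [neg_zero]; exact hF.zero x hx) hW.vf hW.off] at h1
  have h2 : (fun s => push X X (fl X V s) (fl X V (-s)) W y) = fun s => Ws s y := by
    funext s
    rw [push, indicator_of_mem hy, h s _ (hF.maps (-s) hy), ← hF.add s (-s) y hy, add_neg_cancel, hF.zero y hy]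
  rw [h2] at h1
  rw [hw.unique h1, neg_neg]

/-- flows applied to moving points -/
theorem hasDerivAt_moving {n : ℕ} {X : Set E} (hX : Mfd n X) {W : E → E} (hW : Gen X W) {γ : ℝ → E} {v : E}
    (hγ : HasDerivAt γ v 0) (hm : ∀ t, γ t ∈ X) {τ : ℝ → ℝ} {τ' : ℝ} (hτ : HasDerivAt τ τ' 0) (h0 : τ 0 = 0) :
    HasDerivAt (fun t => fl X W (τ t) (γ t)) (τ' • W (γ 0) + v) 0 := by
  obtain ⟨O, hO, C, hC⟩ := flow_est hX hW (hm 0)
  have hτ0 : Tendsto τ (𝓝 0) (𝓝 0) := by simpa only [ContinuousAt, h0] using hτ.continuousAt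
  have h1 : HasDerivAt (fun t => W (γ t)) (Dv X W (γ 0) v) 0 :=
    hasDerivAt_comp_curve hγ (Eventually.of_forall hm) (hW.an.differentiableOn _ (hm 0))
  have h2 := hτ.smul h1
  rw [h0, zero_smul, zero_add] at h2
  have h3 : HasDerivAt (fun t => fl X W (τ t) (γ t) - γ t - τ t • W (γ t)) 0 0 := by
    rw [hasDerivAt_iff_isLittleO]
    simp only [h0, hW.isFlow.zero _ (hm 0), sub_self, zero_smul, sub_zero, smul_zero]
    have hb : (fun t => fl X W (τ t) (γ t) - γ t - τ t • W (γ t)) =O[𝓝 0] fun t => τ t * τ t := by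
      refine Asymptotics.IsBigO.of_bound C ?_
      filter_upwards [hτ0.eventually hC, hγ.continuousAt.eventually hO] with t ht ht'
      have := ht (γ t) ⟨hm t, ht'⟩
      rwa [Real.norm_eq_abs, abs_mul_self, ← sq]
    refine hb.trans_isLittleO ?_
    have ha : τ =o[𝓝 0] fun _ => (1 : ℝ) := (Asymptotics.isLittleO_one_iff ℝ).2 hτ0
    have hb' : τ =O[𝓝 0] fun t : ℝ => t := by
      simpa only [h0, sub_zero] using hτ.isBigO_sub
    simpa only [one_mul] using ha.mul_isBigO hb'
  have h4 := (h3.add hγ).add h2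
  convert h4 using 1
  · funext t
    simp only [Pi.add_apply, Pi.smul_apply']
    abel
  · rw [zero_add, add_comm]

/-- a real subspace inside a complex one -/
theorem finrank_le_two_mul {U : Submodule ℝ E} {V : Submodule ℂ E} (h : U ≤ V.restrictScalars ℝ) :
    Module.finrank ℝ U ≤ 2 * Module.finrank ℂ V ∧
      (2 * Module.finrank ℂ V ≤ Module.finrank ℝ U → ∀ v ∈ V, v ∈ U) := by
  have h1 : Module.finrank ℝ (V.restrictScalars ℝ) = 2 * Module.finrank ℂ V := by
    have := Module.finrank_mul_finrank ℝ ℂ V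
    rw [Complex.finrank_real_complex] at this
    rw [this]
    rfl
  refine ⟨h1 ▸ Submodule.finrank_mono h, fun h2 v hv => ?_⟩
  have := Submodule.eq_of_le_of_finrank_le h (h1 ▸ h2)
  rw [this]
  exact hv

theorem gen_span {n : ℕ} {X : Set E} (hX : CM n X) {S : Set (E → E)} (hS : ∀ W ∈ S, Gen X W) :
    ∀ W ∈ Submodule.span ℝ S, Gen X W := by
  intro W hW
  induction hW using Submodule.span_induction with
  | mem W hW => exact hS W hW
  | zero => exact gen_zero X
  | add V W _ _ hV hW => exact Gen.add hX hV hW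
  | smul c W _ hW => exact (hW.rsmul c).1

theorem bsd {r : ℕ} {D : Set (Fin r → ℂ)} (hO : IsOpen D) (h : Sym r D) :
    Crest.AlgGeometry.Semialg.IsBoundedSymmetricDomain D := by
  refine ⟨hO, h.cm.conn, h.cm.bdd, fun p hp => ?_⟩
  obtain ⟨Z, hZ, h0, hd⟩ := h.circ p hp
  have hF := hZ.isFlow
  have hD : D ∈ 𝓝 p := hO.mem_nhds hp
  refine ⟨fl D Z Real.pi, (hF.an _).differentiableOn, hF.maps _, fun z hz => ?_, hZ.fl_fix hp h0 _, ?_⟩
  · rw [← hF.add _ _ z hz]
    refine cartan h.cm.mfd h.cm.conn.isPreconnected h.cm.bdd (hF.an _) (hF.maps _) hp (hZ.fl_fix hp h0 _)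
      (fun v hv => ?_) z hz
    rw [Dv_fl_scalar h.cm.mfd hZ hp h0 hd hv]
    have : I * ((Real.pi + Real.pi : ℝ) : ℂ) = 2 * Real.pi * I := by push_cast; ring
    rw [this, Complex.exp_two_pi_mul_I, one_smul]
  · have hs : HasFDerivAt (fl D Z Real.pi) (-ContinuousLinearMap.id ℂ (Fin r → ℂ)) p := by
      have h1 : DifferentiableAt ℂ (fl D Z Real.pi) p :=
        ((hF.an Real.pi).differentiableOn p hp).differentiableAt hD
      convert h1.hasFDerivAt using 1
      ext1 v
      rw [← Dv_of_mem_nhds hD, Dv_fl_scalar h.cm.mfd hZ hp h0 hd (by rw [Tan_of_mem_nhds hD]; trivial),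
        mul_comm, Complex.exp_pi_mul_I]
      simp
    have h2 := (hs.sub (hasFDerivAt_id p)).eventually_ne (c := 0) ⟨1, ?_⟩
    · filter_upwards [h2] with z hz
      intro he
      exact hz (by simp [he])
    · refine ContinuousLinearMap.antilipschitz_of_bound _ fun v => ?_
      have : (-ContinuousLinearMap.id ℂ (Fin r → ℂ) - ContinuousLinearMap.id ℂ (Fin r → ℂ)) v = (-2 : ℂ) • v := by
        simp only [sub_apply, neg_apply, ContinuousLinearMap.id_apply]
        module
      rw [this, norm_smul]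
      simp only [norm_neg, Complex.norm_ofNat, NNReal.coe_one, one_mul]
      linarith [norm_nonneg v]

end Beta

end Crest.Agent.R264
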