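import Crest.Agent.R264.Beta.Def

set_option autoImplicit false
set_option linter.unusedSectionVars false
open Set Filter Topology Metric Complex

namespace Crest.Agent.R264

variable {E F G : Type}
  [NormedAddCommGroup E] [NormedSpace ℂ E] [NormedSpace ℝ E] [IsScalarTower ℝ ℂ E] [FiniteDimensional ℂ E]
  [NormedAddCommGroup F] [NormedSpace ℂ F] [NormedSpace ℝ F] [IsScalarTower ℝ ℂ F] [FiniteDimensional ℂ F]
  [NormedAddCommGroup G] [NormedSpace ℂ G] [NormedSpace ℝ G] [IsScalarTower ℝ ℂ G] [FiniteDimensional ℂ G]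

namespace Beta

/-- near a point of the image of a retraction the kernel of the differential is small -/
theorem ker_small {n k : ℕ} {X : Set E} (hX : Mfd n X) (hc : IsPreconnected X) {ρ : E → E} (ha : AnalyticOn ℂ ρ X)
    (hm : MapsTo ρ X X) (hi : ∀ x ∈ X, ρ (ρ x) = ρ x) (hk : Mfd k (ρ '' X)) {x : E} (hx : x ∈ ρ '' X) :
    ∀ᶠ y in 𝓝[X] x, ∀ V : Submodule ℂ E, (∀ v ∈ V, v ∈ Tan X y ∧ Dv X ρ y v = 0) → Module.finrank ℂ V + k ≤ n := by
  obtain ⟨-, -, htan⟩ := retract hX hc ha hm hi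
  have hxX : x ∈ X := by
    obtain ⟨y, hy, rfl⟩ := hx
    exact hm hy
  obtain ⟨O, hO, hxO, e, he, hfr⟩ := hX.frame hxX
  obtain ⟨g, hg, hρg⟩ := anOn_iff.1 ha x hxX
  have hev : ∀ᶠ y in 𝓝[X] x, y ∈ X ∧ y ∈ O ∧ ∀ v ∈ Tan X y, Dv X ρ y v = fderiv ℂ g y v := by
    filter_upwards [self_mem_nhdsWithin, mem_nhdsWithin_of_mem_nhds (hO.mem_nhds hxO),
      mem_nhdsWithin_of_mem_nhds hg.eventually_analyticAt, eventually_eventually_nhdsWithin.2 hρg] with y h1 h2 h3 h4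
    exact ⟨h1, h2, fun v hv => Dv_eq_fderiv h1 h3.differentiableAt h4 hv⟩
  have hcont : ContinuousAt (fun y => (fderiv ℂ g y).comp (e y)) x :=
    hg.fderiv.continuousAt.clm_comp (he x hxO).continuousAt
  have hrk : (k : Cardinal) ≤ ((fderiv ℂ g x).comp (e x) : (Fin n → ℂ) →ₗ[ℂ] E).rank := by
    have h1 : LinearMap.range ((fderiv ℂ g x).comp (e x) : (Fin n → ℂ) →ₗ[ℂ] E) = Tan (ρ '' X) x := by
      obtain ⟨-, -, h3⟩ := hev.self_of_nhdsWithin hxX
      rw [htan x hx]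
      ext w
      constructor
      · rintro ⟨u, rfl⟩
        have : e x u ∈ Tan X x := by
          rw [(hfr x ⟨hxX, hxO⟩).2]
          exact ⟨u, rfl⟩
        exact ⟨e x u, this, h3 _ this⟩
      · rintro ⟨v, hv, rfl⟩
        have hv' := hv
        rw [SetLike.mem_coe, (hfr x ⟨hxX, hxO⟩).2] at hv'
        obtain ⟨u, rfl⟩ := hv'
        exact ⟨u, (h3 _ hv).symm⟩
    rw [LinearMap.rank, h1, ← hk.finrank_tan hx, Module.finrank_eq_rank]
  have hop := hcont.eventually ((isOpen_setOfPred_nat_le_rank (𝕜 := ℂ) (E := Fin n → ℂ) (F := E) k).mem_nhds hrk)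
  filter_upwards [hev, mem_nhdsWithin_of_mem_nhds hop] with y hy hy' V hV
  obtain ⟨h1, h2, h3⟩ := hy
  set M : (Fin n → ℂ) →ₗ[ℂ] E := ((fderiv ℂ g y).comp (e y)).toLinearMap with hM
  have h4 : k ≤ Module.finrank ℂ (LinearMap.range M) := by
    have : (k : Cardinal) ≤ M.rank := hy'
    rw [LinearMap.rank, ← Module.finrank_eq_rank] at this
    exact_mod_cast this
  have h5 : V ≤ (LinearMap.ker M).map (e y : (Fin n → ℂ) →ₗ[ℂ] E) := by
    intro v hv
    obtain ⟨hv1, hv2⟩ := hV v hv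
    have hv' := hv1
    rw [(hfr y ⟨h1, h2⟩).2] at hv'
    obtain ⟨u, rfl⟩ := hv'
    refine ⟨u, ?_, rfl⟩
    rw [h3 _ hv1] at hv2
    exact hv2
  have h6 := (Submodule.finrank_mono h5).trans (Submodule.finrank_map_le _ _)
  have h7 := M.finrank_range_add_finrank_ker
  rw [Module.finrank_fin_fun] at h7
  omega

section Heis
variable {X : Set E} {A : Type} [Fintype A] {κ : (A → ℂ) →L[ℝ] (A → ℂ) →L[ℝ] ℝ}
  {T : ℝ → (A → ℂ) → E → E} {Dl : ℝ → E → E} {ρ : E → E} {Ω : Set E}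

theorem ka_skew (h : HAct X A κ T Dl ρ Ω) (a a' : A → ℂ) : κ a' a = -κ a a' := by
  have := h.skew (a + a')
  simp only [map_add, add_apply, h.skew] at this
  linarith

/-- the generators of the Heisenberg group depend linearly on the parameters -/
theorem exists_N {n : ℕ} (hX : CM n X) (h : HAct X A κ T Dl ρ Ω) :
    ∃ N : (ℝ × (A → ℂ)) →ₗ[ℝ] (E → E), ∀ p, Gen X (N p) ∧ IsFlow X (N p) fun t => T (t * p.1) (t • p.2) := by
  have h1 : ∀ p : ℝ × (A → ℂ), ∃ W, Gen X W ∧ IsFlow X W fun t => T (t * p.1) (t • p.2) := by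
    intro p
    refine IsGrp.gen hX ⟨fun t => (h.anT _ _).1, fun t => (h.anT _ _).2, fun x hx => ?_, fun s t x hx => ?_⟩ h.sub
      h.dense fun x hx => ?_
    · simp only [zero_mul, zero_smul, h.T0 x hx]
    · rw [h.Tadd _ _ _ _ x hx]
      simp only [map_smul, smul_apply, h.skew, smul_zero, add_zero, add_mul, add_smul]
    · have hc : ContinuousAt (fun t : ℝ => ((t * p.1, t • p.2) : ℝ × (A → ℂ))) 0 := by fun_prop
      exact ContinuousAt.comp_of_eq (h.cT x hx) hc (by simp)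
  choose N hg hf using h1
  have hfl : ∀ p t, ∀ x ∈ X, fl X (N p) t x = T (t * p.1) (t • p.2) x := fun p t x hx =>
    ((hg p).fl_eq_flow (hf p) t hx).symm
  refine ⟨⟨⟨N, fun p q => ?_⟩, fun c p => ?_⟩, fun p => ⟨hg p, hf p⟩⟩
  · funext x
    by_cases hx : x ∈ X
    · have hC := (hg (1, 0)).isFlow
      have hτ : HasDerivAt (fun t : ℝ => -(t * t * κ p.2 q.2)) 0 0 := by
        have := (((hasDerivAt_id' (0 : ℝ)).mul (hasDerivAt_id' (0 : ℝ))).mul_const (κ p.2 q.2)).fun_neg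
        simpa using this
      have d1 := hasDerivAt_moving hX.mfd (hg (1, 0)) (hasDerivAt_const (0 : ℝ) x) (fun _ => hx) hτ (by simp)
      have m1 : ∀ t : ℝ, fl X (N (1, 0)) (-(t * t * κ p.2 q.2)) x ∈ X := fun t => hC.maps _ hx
      have d2 := hasDerivAt_moving hX.mfd (hg q) d1 m1 (hasDerivAt_id' (0 : ℝ)) rfl
      have m2 : ∀ t : ℝ, fl X (N q) t (fl X (N (1, 0)) (-(t * t * κ p.2 q.2)) x) ∈ X := fun t =>
        (hg q).isFlow.maps _ (m1 t)
      have d3 := hasDerivAt_moving hX.mfd (hg p) d2 m2 (hasDerivAt_id' (0 : ℝ)) rfl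
      simp only [zero_mul, neg_zero, hC.zero x hx, (hg q).isFlow.zero x hx, one_smul, zero_smul, add_zero] at d3
      refine ((hf (p + q)).der x hx).unique ?_
      refine d3.congr_of_eventuallyEq (Eventually.of_forall fun t => ?_)
      simp only
      rw [hfl p t _ (m2 t), hfl q t _ (m1 t), hfl (1, 0) _ x hx, h.Tadd _ _ _ _ x hx, h.Tadd _ _ _ _ x hx]
      simp only [smul_zero, map_zero, add_zero, map_smul, smul_apply, smul_eq_mul, mul_one, Prod.fst_add,
        Prod.snd_add, smul_add]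
      congr 1
      ring
    · simp only [Pi.add_apply, (hg _).off x hx, add_zero]
  · funext x
    by_cases hx : x ∈ X
    · have d1 : HasDerivAt (fun t : ℝ => T (t * p.1) (t • p.2) x) (N p x) (0 * c) := by
        rw [zero_mul]
        exact (hf p).der x hx
      have d2 := d1.scomp (0 : ℝ) ((hasDerivAt_id' (0 : ℝ)).mul_const c)
      simp only [one_mul] at d2
      refine ((hf (c • p)).der x hx).unique ?_
      refine d2.congr_of_eventuallyEq (Eventually.of_forall fun t => ?_)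
      simp only [Function.comp, Prod.smul_fst, Prod.smul_snd, smul_eq_mul, mul_assoc, mul_smul]
    · simp only [Pi.smul_apply, (hg _).off x hx, smul_zero]

theorem hasDerivAt_N (N : (ℝ × (A → ℂ)) →ₗ[ℝ] (E → E)) (y : E) {c : ℝ → ℝ × (A → ℂ)} {c' : ℝ × (A → ℂ)}
    (hc : HasDerivAt c c' 0) : HasDerivAt (fun s => N (c s) y) (N c' y) 0 :=
  (LinearMap.toContinuousLinearMap (evx N y)).hasFDerivAt.comp_hasDerivAt (0 : ℝ) hc

theorem br_dN {n : ℕ} (hX : CM n X) (h : HAct X A κ T Dl ρ Ω) {N : (ℝ × (A → ℂ)) →ₗ[ℝ] (E → E)}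
    (hN : ∀ p, Gen X (N p) ∧ IsFlow X (N p) fun t => T (t * p.1) (t • p.2)) {δ : E → E} (hδ : Gen X δ)
    (hD : IsFlow X δ Dl) (p : ℝ × (A → ℂ)) : br X δ (N p) = -N (2 * p.1, p.2) := by
  funext y
  by_cases hy : y ∈ X
  · refine br_of_conj hX.mfd hδ (hN p).1 (Ws := fun s => N (Real.exp (2 * s) * p.1, Real.exp s • p.2))
      (fun s x hx => ?_) hy (hasDerivAt_N N y ?_)
    · refine Dv_conj (hN p).2 (hN _).2 hx ((hδ.isFlow.an s).differentiableOn x hx) (hδ.isFlow.maps s hx) fun t => ?_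
      rw [← hδ.fl_eq_flow hD s hx, ← hδ.fl_eq_flow hD s ((h.anT _ _).2 hx), h.DT _ _ _ x hx]
      simp only [smul_comm t, mul_left_comm t]
    · refine HasDerivAt.prodMk ?_ ?_
      · have := (((hasDerivAt_id' (0 : ℝ)).const_mul 2).exp).mul_const p.1
        simpa using this
      · have := (Real.hasDerivAt_exp 0).smul_const p.2
        simpa using this
  · rw [br_off _ _ hy, Pi.neg_apply, (hN _).1.off y hy, neg_zero]

theorem br_NN {n : ℕ} (hX : CM n X) (h : HAct X A κ T Dl ρ Ω) {N : (ℝ × (A → ℂ)) →ₗ[ℝ] (E → E)}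
    (hN : ∀ p, Gen X (N p) ∧ IsFlow X (N p) fun t => T (t * p.1) (t • p.2)) (p q : ℝ × (A → ℂ)) :
    br X (N p) (N q) = -N (2 * κ p.2 q.2, 0) := by
  funext y
  by_cases hy : y ∈ X
  · have hF := (hN p).1.isFlow
    refine br_of_conj hX.mfd (hN p).1 (hN q).1 (Ws := fun s => N (q.1 + s * (2 * κ p.2 q.2), q.2))
      (fun s x hx => ?_) hy (hasDerivAt_N N y ?_)
    · refine Dv_conj (hN q).2 (hN _).2 hx ((hF.an s).differentiableOn x hx) (hF.maps s hx) fun t => ?_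
      rw [← (hN p).1.fl_eq_flow (hN p).2 s hx, ← (hN p).1.fl_eq_flow (hN p).2 s ((h.anT _ _).2 hx),
        h.Tadd _ _ _ _ x hx, h.Tadd _ _ _ _ x hx, add_comm (t • q.2)]
      simp only [map_smul, smul_apply, smul_eq_mul]
      rw [ka_skew h p.2 q.2]
      congr 1
      ring
    · refine HasDerivAt.prodMk ?_ (hasDerivAt_const _ _)
      have := ((hasDerivAt_id' (0 : ℝ)).mul_const (2 * κ p.2 q.2)).const_add q.1
      simpa using this
  · rw [br_off _ _ hy, Pi.neg_apply, (hN _).1.off y hy, neg_zero]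

/-- evaluation at a point is injective on the solvable algebra -/
theorem ev_inj {n : ℕ} (hX : CM n X) (h : HAct X A κ T Dl ρ Ω) {N : (ℝ × (A → ℂ)) →ₗ[ℝ] (E → E)}
    (hN : ∀ p, Gen X (N p) ∧ IsFlow X (N p) fun t => T (t * p.1) (t • p.2)) {δ : E → E} (hδ : Gen X δ)
    (hD : IsFlow X δ Dl) {x : E} (hx : x ∈ X) {s : ℝ} {p : ℝ × (A → ℂ)} (h0 : s • δ x + N p x = 0) :
    s = 0 ∧ p = 0 := by
  obtain ⟨L, _, _, _, ι, hι, hf⟩ := exists_lieRep hX
  obtain ⟨d, rfl⟩ := hf δ hδ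
  choose ν hν using fun p => hf (N p) (hN p).1
  have hC : ∀ c : ℝ, ν (c, 0) = c • ν (1, 0) := fun c => hι.inj (by
    rw [map_smul, hν, hν, ← map_smul]
    simp)
  have hd : ∀ p, ⁅d, ν p⁆ = -ν (2 * p.1, p.2) := fun p => hι.inj (by
    rw [hι.lie, hν, map_neg, hν, br_dN hX h hN hδ hD])
  have hn : ∀ p q, ⁅ν p, ν q⁆ = -((2 * κ p.2 q.2) • ν (1, 0)) := fun p q => hι.inj (by
    rw [hι.lie, hν, hν, ← hC, map_neg, hν, br_NN hX h hN])
  have hne : ν (1, 0) ≠ 0 := by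
    intro he
    obtain ⟨y, hy, hne⟩ := h.ne
    have h1 : N (1, 0) y = 0 := by rw [← hν, he, map_zero, Pi.zero_apply]
    have h2 := (hN (1, 0)).1.fl_fix hy h1 1
    rw [← (hN (1, 0)).1.fl_eq_flow (hN (1, 0)).2 1 hy] at h2
    exact hne (by simpa using h2)
  obtain ⟨b, -, hp, hsk⟩ := hι.iso hX hx (k := s • d + ν p) (by
    rw [map_add, map_smul, hν]
    exact h0)
  have hb := hp _ hne
  have hwC : ⁅s • d + ν p, ν (1, 0)⁆ = -((2 * s) • ν (1, 0)) := by
    rw [add_lie, smul_lie, hd, hn]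
    simp only [mul_one, map_zero, mul_zero, zero_smul, neg_zero, add_zero]
    rw [hC 2, smul_neg, smul_smul, mul_comm]
  have hs : s = 0 := by
    have := hsk (ν (1, 0)) (ν (1, 0))
    rw [hwC] at this
    simp only [map_neg, map_smul, LinearMap.neg_apply, LinearMap.smul_apply, smul_eq_mul] at this
    have h1 : s * b (ν (1, 0)) (ν (1, 0)) = 0 := by linarith
    exact (mul_eq_zero.1 h1).resolve_right hb.ne'
  subst hs
  simp only [zero_smul, zero_add, mul_zero, neg_zero] at hsk hwC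
  have ha : p.2 = 0 := by
    refine h.ndeg _ fun a' => ?_
    have := hsk (ν (0, a')) (ν (1, 0))
    rw [hwC, hn] at this
    simp only [map_neg, map_smul, LinearMap.neg_apply, LinearMap.smul_apply, smul_eq_mul, map_zero, add_zero] at this
    have h1 : κ p.2 a' * b (ν (1, 0)) (ν (1, 0)) = 0 := by linarith
    exact (mul_eq_zero.1 h1).resolve_right hb.ne'
  have hc : p.1 = 0 := by
    have := hsk d (ν (1, 0))
    rw [hwC, ← lie_skew, hd, neg_neg, ha, hC] at this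
    simp only [map_smul, LinearMap.smul_apply, smul_eq_mul, map_zero, add_zero] at this
    have h1 : p.1 * b (ν (1, 0)) (ν (1, 0)) = 0 := by linarith
    exact (mul_eq_zero.1 h1).resolve_right hb.ne'
  exact ⟨rfl, Prod.ext hc ha⟩

theorem sd {n k : ℕ} (hX : CM n X) (h : HAct X A κ T Dl ρ Ω) (hk : Mfd k (ρ '' X))
    (hd : k + Fintype.card A + 1 = n) : ∃ 𝒩 δ, SD X 𝒩 δ ρ Ω := by
  obtain ⟨N, hN⟩ := exists_N hX h
  obtain ⟨δ, hδ, hD⟩ := IsGrp.gen hX h.grp h.sub h.dense h.cD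
  have hNinv : ∀ p, ∀ x ∈ X, der X (N p) ρ x = 0 := fun p =>
    ((hN p).1.inv_iff h.anρ).1 fun t x hx => by
      rw [← (hN p).1.fl_eq_flow (hN p).2 t hx]
      exact h.ρT _ _ x hx
  have hδinv : ∀ x ∈ X, der X δ ρ x = 0 :=
    (hδ.inv_iff h.anρ).1 fun t x hx => by
      rw [← hδ.fl_eq_flow hD t hx]
      exact h.ρD _ x hx
  let Ψ : (ℝ × ℝ × (A → ℂ)) →ₗ[ℝ] (E → E) := (LinearMap.toSpanSingleton ℝ (E → E) δ).coprod N
  have hΨ : ∀ q, Ψ q = q.1 • δ + N q.2 := fun q => rfl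
  have hΨg : ∀ q, Gen X (Ψ q) := fun q => Gen.add hX (hδ.rsmul q.1).1 (hN q.2).1
  let 𝒩 : Set (E → E) := range (fun c : ℝ => N (c, 0)) ∪ range fun a : A → ℂ => N (0, a)
  have hsplit : ∀ p : ℝ × (A → ℂ), N p = N (p.1, 0) + N (0, p.2) := fun p => by
    rw [← map_add]
    simp
  have h𝒩 : ∀ W ∈ 𝒩, ∃ p, N p = W := by
    rintro _ (⟨c, rfl⟩ | ⟨a, rfl⟩) <;> exact ⟨_, rfl⟩
  have hspan : Submodule.span ℝ (insert δ 𝒩) = LinearMap.range Ψ := by
    refine le_antisymm (Submodule.span_le.2 ?_) ?_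
    · rintro W (rfl | hW)
      · exact ⟨(1, 0), by rw [hΨ]; simp⟩
      · obtain ⟨p, rfl⟩ := h𝒩 W hW
        exact ⟨(0, p), by rw [hΨ]; simp⟩
    · rintro _ ⟨q, rfl⟩
      rw [hΨ, hsplit]
      refine add_mem (Submodule.smul_mem _ _ (Submodule.subset_span (mem_insert _ _))) (add_mem ?_ ?_)
      · exact Submodule.subset_span (mem_insert_of_mem _ (Or.inl ⟨_, rfl⟩))
      · exact Submodule.subset_span (mem_insert_of_mem _ (Or.inr ⟨_, rfl⟩))
  -- the complex span of the values is small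
  have hrank : ∀ x ∈ X, Module.finrank ℂ (Submodule.span ℂ (range fun q => Ψ q x)) ≤ Fintype.card A + 1 := by
    obtain ⟨x₀, hx₀⟩ := hX.conn.nonempty
    refine rank_le hX.mfd hX.conn.isPreconnected (fun q => (hΨg q).an) (h.mρ hx₀) ?_
    filter_upwards [ker_small hX.mfd hX.conn.isPreconnected h.anρ h.mρ h.idem hk (mem_image_of_mem ρ hx₀),
      self_mem_nhdsWithin] with y hy hyX
    have hle : Submodule.span ℂ (range fun q => Ψ q y) ≤ Tan X y ⊓ LinearMap.ker (Dv X ρ y : E →ₗ[ℂ] E) := by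
      rw [Submodule.span_le]
      rintro _ ⟨q, rfl⟩
      refine ⟨(hΨg q).vf.tan y hyX, ?_⟩
      have h1 := hδinv y hyX
      have h2 := hNinv q.2 y hyX
      simp only [der] at h1 h2
      change Dv X ρ y (q.1 • δ y + N q.2 y) = 0
      rw [map_add, ContinuousLinearMap.map_smul_of_tower, h1, h2, smul_zero, add_zero]
    have := hy _ fun v hv => hle hv
    omega
  have hA : Module.finrank ℝ (ℝ × (A → ℂ)) = 1 + 2 * Fintype.card A := by
    rw [Module.finrank_prod, Module.finrank_self, finrank_real_of_complex, Module.finrank_fintype_fun_eq_card]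
  have hinj : ∀ x ∈ X, Function.Injective (evx Ψ x) := by
    intro x hx
    rw [injective_iff_map_eq_zero]
    intro q hq
    obtain ⟨h1, h2⟩ := ev_inj hX h hN hδ hD hx (s := q.1) (p := q.2) hq
    exact Prod.ext h1 h2
  have hinj' : ∀ x ∈ X, Function.Injective (evx N x) := by
    intro x hx
    rw [injective_iff_map_eq_zero]
    intro p hp
    refine (ev_inj hX h hN hδ hD hx (s := 0) (p := p) ?_).2
    rw [zero_smul, zero_add]
    exact hp
  refine ⟨𝒩, δ, fun W hW => ?_, hδ, ?_, fun x hx W hW => ?_, fun x hx => ?_, h.anρ, h.mρ, h.idem, ?_, h.sub, h.dense,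
    fun x hx => ?_⟩
  · obtain ⟨p, rfl⟩ := h𝒩 W hW
    exact (hN p).1
  · rintro _ (⟨c, rfl⟩ | ⟨a, rfl⟩)
    · right
      rw [br_dN hX h hN hδ hD, ← map_smul]
      simp
    · left
      rw [br_dN hX h hN hδ hD]
      simp
  · rw [hspan] at hW ⊢
    obtain ⟨q, rfl⟩ := hW
    have hle : LinearMap.range (evx Ψ x) ≤ (Submodule.span ℂ (range fun q => Ψ q x)).restrictScalars ℝ := by
      rintro _ ⟨q, rfl⟩
      exact Submodule.subset_span ⟨q, rfl⟩
    obtain ⟨q', hq'⟩ := (finrank_le_two_mul hle).2 (by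
      rw [LinearMap.finrank_range_of_inj (hinj x hx), Module.finrank_prod, Module.finrank_self, hA]
      have := hrank x hx
      omega) _ (Submodule.smul_mem _ I (Submodule.subset_span ⟨q, rfl⟩))
    exact ⟨Ψ q', ⟨q', rfl⟩, hq'⟩
  · have hle : LinearMap.range (evx N x) ≤ (Submodule.span ℂ ((fun N => N x) '' 𝒩)).restrictScalars ℝ := by
      rintro _ ⟨p, rfl⟩
      change N p x ∈ Submodule.span ℂ ((fun N => N x) '' 𝒩)
      rw [hsplit, Pi.add_apply]
      exact add_mem (Submodule.subset_span ⟨_, Or.inl ⟨_, rfl⟩, rfl⟩) (Submodule.subset_span ⟨_, Or.inr ⟨_, rfl⟩, rfl⟩)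
    have h1 := (finrank_le_two_mul hle).1
    rw [LinearMap.finrank_range_of_inj (hinj' x hx), hA] at h1
    have hle' : Submodule.span ℂ ((fun N => N x) '' 𝒩) ≤ Submodule.span ℂ (range fun q => Ψ q x) := by
      refine Submodule.span_mono ?_
      rintro _ ⟨W, hW, rfl⟩
      obtain ⟨p, rfl⟩ := h𝒩 W hW
      exact ⟨(0, p), by simp [hΨ]⟩
    rw [Submodule.eq_of_le_of_finrank_le hle' (by have := hrank x hx; omega)]
    exact Submodule.subset_span ⟨(1, 0), by simp [hΨ]⟩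
  · rintro W (rfl | hW)
    · exact hδinv
    · obtain ⟨p, rfl⟩ := h𝒩 W hW
      exact hNinv p
  · obtain ⟨c, a, s, he⟩ := h.orb x hx
    have m0 := h.mρ (h.sub hx)
    have m1 := h.grp.maps s m0
    refine ⟨N (0, a), Or.inr ⟨a, rfl⟩, N (c, 0), Or.inl ⟨c, rfl⟩, s, ?_⟩
    rw [← hδ.fl_eq_flow hD s m0, ← (hN (c, 0)).1.fl_eq_flow (hN (c, 0)).2 1 m1,
      ← (hN (0, a)).1.fl_eq_flow (hN (0, a)).2 1 ((h.anT _ _).2 m1), h.Tadd _ _ _ _ _ m1]
    simpa using he

end Heis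

end Beta

end Crest.Agent.R264
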